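import Vale.Agent.P091.Main

/-!
# P091: almost everywhere unbounded divergence in `φ(L)` for every `φ(u) = o(u √(log u))`
-/

open MeasureTheory Filter Asymptotics

namespace Vale.Agent.Results.P091.SqrtLog

theorem result [_hT : Fact (0 < 2 * Real.pi)] (φ : ℝ → ℝ) (hmono : MonotoneOn φ (Set.Ici 0))
    (hnn : ∀ u, 0 ≤ u → 0 ≤ φ u)
    (ho : φ =o[atTop] fun u => u * Real.sqrt (Real.log u)) :
    ∃ f : AddCircle (2 * Real.pi) → ℂ, Integrable f AddCircle.haarAddCircle ∧
      Integrable (fun x => φ ‖f x‖) AddCircle.haarAddCircle ∧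
      ∀ᵐ x : AddCircle (2 * Real.pi) ∂AddCircle.haarAddCircle,
        ¬ BddAbove (Set.range fun N : ℕ =>
          ‖∑ k ∈ Finset.Icc (-(N : ℤ)) (N : ℤ), fourierCoeff f k * fourier k x‖) :=
  P091.main φ hmono hnn ho

end Vale.Agent.Results.P091.SqrtLog
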